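import Vale.Agent.P018.R2.H312.Mu

/-!
# P018: the criterion with a constant positive weight, closed form
-/

set_option linter.all false

namespace Vale.Agent.P018.R2.H312

open Vale.Agent.P018.K Vale.Agent.P018.K2 Finset

theorem vand (r s : ℕ) :
    ∑ j ∈ range r, r.choose (j + 1) * s.choose j = (r + s).choose (s + 1) := by
  rw [Nat.add_choose_eq, Finset.Nat.sum_antidiagonal_eq_sum_range_succ_mk, Finset.sum_range_succ']
  simp only [Nat.sub_zero, Nat.choose_succ_self, mul_zero, add_zero]
  have h1 : ∀ j ∈ range (s + 1), r.choose (j + 1) * s.choose (s + 1 - (j + 1)) =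
      r.choose (j + 1) * s.choose j := by
    intro j hj
    have hj' : j ≤ s := by
      have := Finset.mem_range.1 hj
      omega
    rw [Nat.add_sub_add_right, Nat.choose_symm hj']
  rw [Finset.sum_congr rfl h1]
  have h2 : ∑ j ∈ range r, r.choose (j + 1) * s.choose j =
      ∑ j ∈ range (r + (s + 1)), r.choose (j + 1) * s.choose j := by
    refine Finset.sum_subset (Finset.range_mono (by omega)) fun j _ hj => ?_
    rw [Finset.mem_range, not_lt] at hj
    rw [Nat.choose_eq_zero_of_lt (by omega), zero_mul]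
  have h3 : ∑ j ∈ range (s + 1), r.choose (j + 1) * s.choose j =
      ∑ j ∈ range (r + (s + 1)), r.choose (j + 1) * s.choose j := by
    refine Finset.sum_subset (Finset.range_mono (by omega)) fun j _ hj => ?_
    rw [Finset.mem_range, not_lt] at hj
    rw [Nat.choose_eq_zero_of_lt (n := s) (by omega), mul_zero]
  rw [h2, h3]

/-- one term of the double sum -/
theorem term_eq (j i e : ℕ) :
    (((j + i + e + 2).factorial : ℕ) : ℝ) * ((j.factorial : ℝ) * ((i + e).factorial : ℝ))⁻¹ *
      (((i + e).choose i : ℕ) : ℝ) * ((((j + i : ℕ) : ℝ) + 1) * (((j + i : ℕ) : ℝ) + 2))⁻¹ =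
      (((j + i + e + 2).choose (j + i + 2) : ℕ) : ℝ) * (((j + i).choose j : ℕ) : ℝ) := by
  have h1 : (((i + e).choose i : ℕ) : ℝ) = ((i + e).factorial : ℝ) / (i.factorial * e.factorial) :=
    Nat.cast_add_choose ℝ
  have h2 : (((j + i).choose j : ℕ) : ℝ) = ((j + i).factorial : ℝ) / (j.factorial * i.factorial) :=
    Nat.cast_add_choose ℝ
  have h3 : (((j + i + e + 2).choose (j + i + 2) : ℕ) : ℝ) =
      ((j + i + e + 2).factorial : ℝ) / ((j + i + 2).factorial * e.factorial) := by
    have := Nat.cast_add_choose ℝ (a := j + i + 2) (b := e)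
    rw [show j + i + 2 + e = j + i + e + 2 by ring] at this
    exact this
  have h4 : ((j + i + 2).factorial : ℝ) =
      (((j + i : ℕ) : ℝ) + 2) * ((((j + i : ℕ) : ℝ) + 1) * (j + i).factorial) := by
    rw [Nat.factorial_succ (j + i + 1), Nat.factorial_succ (j + i)]
    push_cast
    ring
  rw [h1, h2, h3, h4]
  have f1 : (0 : ℝ) < (j.factorial : ℝ) := by exact_mod_cast Nat.factorial_pos _
  have f2 : (0 : ℝ) < (i.factorial : ℝ) := by exact_mod_cast Nat.factorial_pos _
  have f3 : (0 : ℝ) < (e.factorial : ℝ) := by exact_mod_cast Nat.factorial_pos _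
  have f4 : (0 : ℝ) < ((i + e).factorial : ℝ) := by exact_mod_cast Nat.factorial_pos _
  have f5 : (0 : ℝ) < ((j + i).factorial : ℝ) := by exact_mod_cast Nat.factorial_pos _
  have f6 : (0 : ℝ) < ((j + i : ℕ) : ℝ) + 1 := by positivity
  have f7 : (0 : ℝ) < ((j + i : ℕ) : ℝ) + 2 := by positivity
  field_simp

theorem Gmu_closed (r : ℕ) (w k μ : ℝ) (hw : 0 < w) :
    ((r + 2).factorial : ℝ) * w ^ r * GmuR r w k μ =
      ∑ s ∈ range (r + 2), (((r + 2).choose (s + 1) * (r + s - 1).choose s : ℕ) : ℝ) *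
        μ ^ (r + 1 - s) * (w * k) ^ s := by
  rw [Finset.sum_range_succ', GmuR, mul_add, add_comm]
  congr 1
  · -- the double sum
    have hI : Finset.Icc 1 r = Finset.Ico 1 (r + 1) := by
      ext j
      simp only [Finset.mem_Icc, Finset.mem_Ico]
      omega
    rw [hI, Finset.sum_Ico_eq_sum_range, Nat.add_sub_cancel, Finset.mul_sum]
    have h1 : ∀ j ∈ range r, ((r + 2).factorial : ℝ) * w ^ r * ((r.choose (1 + j) : ℝ) *
        (family_C r (1 + j) w * ∑ i ∈ range (r - (1 + j) + 1 + 1),
          ((r - (1 + j) + 1).choose i : ℝ) * μ ^ (r - (1 + j) + 1 - i) * w ^ i *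
          (k ^ (1 + j - 1 + i + 1) / (((1 + j - 1 + i : ℕ) + 1) * ((1 + j - 1 + i : ℕ) + 2))))) =
        ∑ s ∈ range (r + 1), (((r.choose (j + 1) * s.choose j : ℕ) : ℝ) *
          (((r + 2).choose (s + 1 + 1) : ℕ) : ℝ)) * (μ ^ (r + 1 - (s + 1)) * (w * k) ^ (s + 1)) := by
      intro j hj
      have hj' := Finset.mem_range.1 hj
      have e1 : r - (1 + j) + 1 = r - j := by omega
      have e2 : 1 + j - 1 = j := by omega
      rw [e1]
      simp only [e2]
      have e3 : r + 1 = j + (r - j + 1) := by omega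
      rw [e3, Finset.sum_range_add _ j (r - j + 1)]
      have h0 : ∑ s ∈ range j, (((r.choose (j + 1) * s.choose j : ℕ) : ℝ) *
          (((r + 2).choose (s + 1 + 1) : ℕ) : ℝ)) *
          (μ ^ (j + (r - j + 1) - (s + 1)) * (w * k) ^ (s + 1)) = 0 := by
        refine Finset.sum_eq_zero fun s hs => ?_
        rw [Nat.choose_eq_zero_of_lt (Finset.mem_range.1 hs)]
        simp
      rw [h0, zero_add, Finset.mul_sum, Finset.mul_sum, Finset.mul_sum]
      refine Finset.sum_congr rfl fun i hi => ?_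
      have hi' : i ≤ r - j := by
        have := Finset.mem_range.1 hi
        omega
      obtain ⟨e, he⟩ : ∃ e, r = j + i + e := ⟨r - j - i, by omega⟩
      have t1 : r - j = i + e := by omega
      have t2 : r - j - i = e := by omega
      have t3 : j + (r - j + 1) - (j + i + 1) = e := by omega
      have t4 : j + i + 1 + 1 = j + i + 2 := by ring
      rw [t3, t4, t2, t1]
      unfold family_C
      have t5 : 1 + j - 1 = j := by omega
      have t6 : r - (1 + j) + 1 = i + e := by omega
      rw [t5, t6]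
      have t7 : w ^ r = w ^ (r - (1 + j)) * w ^ (j + 1) := by
        rw [← pow_add]
        congr 1
        omega
      have hT := term_eq j i e
      rw [← he] at hT
      have hwp : w ^ (r - (1 + j)) ≠ 0 := (pow_pos hw _).ne'
      have t8 : (w * k) ^ (j + i + 1) = w ^ (j + 1) * w ^ i * k ^ (j + i + 1) := by
        rw [mul_pow]
        congr 1
        rw [← pow_add]
        congr 1
        ring
      rw [t7, t8, mul_inv, mul_inv, add_comm 1 j]
      push_cast
      push_cast at hT
      rw [mul_inv] at hT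
      have t9 : (((r + 2).factorial : ℝ) * (w ^ (r - (j + 1)) * w ^ (j + 1)) *
          ((r.choose (j + 1) : ℝ) * (((j.factorial : ℝ))⁻¹ * ((i + e).factorial : ℝ)⁻¹ *
          (w ^ (r - (j + 1)))⁻¹ * (((i + e).choose i : ℝ) * μ ^ e * w ^ i *
          (k ^ (j + i + 1) / (((j : ℝ) + i + 1) * ((j : ℝ) + i + 2))))))) =
          ((r.choose (j + 1) : ℝ)) * (((r + 2).factorial : ℝ) *
          ((j.factorial : ℝ)⁻¹ * ((i + e).factorial : ℝ)⁻¹) * ((i + e).choose i : ℝ) *
          (((j : ℝ) + i + 1) * ((j : ℝ) + i + 2))⁻¹) *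
          ((w ^ (r - (j + 1)) * (w ^ (r - (j + 1)))⁻¹)) *
          (μ ^ e * (w ^ (j + 1) * w ^ i * k ^ (j + i + 1))) := by
        rw [div_eq_mul_inv]
        ring
      rw [t9, hT, mul_inv_cancel₀ (by rw [add_comm j 1]; exact hwp)]
      ring
    rw [Finset.sum_congr rfl h1, Finset.sum_comm]
    refine Finset.sum_congr rfl fun s _ => ?_
    rw [← Finset.sum_mul, ← Finset.sum_mul, ← Nat.cast_sum, vand]
    have e4 : r + (s + 1) - 1 = r + s := by omega
    rw [e4]
    push_cast
    ring
  · have h2 : ((r + 2).factorial : ℝ) = ((r : ℝ) + 2) * (r + 1).factorial := by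
      rw [Nat.factorial_succ (r + 1)]
      push_cast
      ring
    have f1 : (0 : ℝ) < ((r + 1).factorial : ℝ) := by exact_mod_cast Nat.factorial_pos _
    have hwp : w ^ r ≠ 0 := (pow_pos hw _).ne'
    rw [h2]
    simp only [zero_add, Nat.choose_one_right, Nat.choose_zero_right, mul_one, Nat.sub_zero,
      pow_zero]
    push_cast
    field_simp

/-- THE CRITERION WITH A CONSTANT POSITIVE WEIGHT, closed form. -/
theorem crit_of_mu (d k r : ℕ) (hd : 1 ≤ d) (hk : 1 ≤ k) (hr : 1 ≤ r) (a b μ : ℝ) (ha : 0 < a)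
    (hb : 0 < b) (hμ : 0 ≤ μ)
    (h : (1 + μ) ^ (r + 2) - μ ^ (r + 2) < b ^ r *
      ∑ s ∈ range (r + 2), (((r + 2).choose (s + 1) * (r + s - 1).choose s : ℕ) : ℝ) *
        μ ^ (r + 1 - s) * (a / d * k) ^ s) : Crit d k r a (a / d * b) := by
  have hd0 : (0 : ℝ) < d := by exact_mod_cast hd
  have hw : 0 < a / d := by positivity
  refine crit_of_muG d k r hd hk a (a / d * b) μ ha (by positivity) hμ ?_
  have h1 := Gmu_closed r (a / d) k μ hw
  rw [← h1] at h
  have f1 : (0 : ℝ) < ((r + 2).factorial : ℝ) := by exact_mod_cast Nat.factorial_pos _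
  rw [div_lt_iff₀ (by positivity)]
  refine h.trans_eq ?_
  rw [mul_pow]
  ring

end Vale.Agent.P018.R2.H312
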