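import Vale.Agent.P018.Bdl.B12

/-!
# P018: the criterion with a constant positive weight
-/

set_option linter.all false

namespace Vale.Agent.P018.R2.H312

open Vale.Agent.P018.K Vale.Agent.P018.K2 Finset

/-- power sums from below -/
theorem pow_sum_ge (q N : ℕ) : (N : ℝ) ^ (q + 1) ≤ (q + 1) * ∑ s ∈ range (N + 1), (s : ℝ) ^ q := by
  induction N with
  | zero => simp
            cases q <;> simp
  | succ N ih =>
    rw [sum_range_succ, mul_add]
    have h := family_pow_sub_le ((N + 1 : ℕ) : ℝ) (N : ℝ) (Nat.cast_nonneg N)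
      (by push_cast; linarith) q
    have e : (((N + 1 : ℕ) : ℝ) - N) = 1 := by push_cast; ring
    rw [e, mul_one] at h
    linarith

/-- power sums from above -/
theorem pow_sum_le (q T : ℕ) (Y : ℝ) (hY : 0 ≤ Y) :
    (q + 1) * ∑ t ∈ range T, (Y + t) ^ q ≤ (Y + T) ^ (q + 1) - Y ^ (q + 1) := by
  induction T with
  | zero => simp
  | succ T ih =>
    rw [sum_range_succ, mul_add]
    have h := family_le_pow_sub (Y + (T + 1 : ℕ)) (Y + T) (by positivity)
      (by push_cast; linarith) q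
    have e : (Y + (T + 1 : ℕ) - (Y + T)) = 1 := by push_cast; ring
    rw [e, mul_one] at h
    linarith

/-- the functions of degree `t`, weight `L - w ∑ e`, `L ≥ 0` -/
theorem mu_level (k r : ℕ) (hk : 1 ≤ k) (w L : ℝ) (hw : 0 < w) (hL : 0 ≤ L) (t : ℕ)
    (ht : r ≤ t) :
    ∃ B : Finset (Fin r → ℤ), (∀ e ∈ B, needs k e ≤ t) ∧
      L ^ (r + 1) / ((r + 1).factorial * w ^ r) + ∑ j ∈ Finset.Icc 1 r, (r.choose j : ℝ) *
        (family_C r j w * ∫ u in (0 : ℝ)..(k * ((t : ℝ) - r)), family_f j (r - j + 1) w (-L) u) ≤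
        ∑ e ∈ B, (L - w * ∑ i, (e i : ℝ)) := by
  have hex : ∀ (J : Finset (Fin r)) (n : ℕ), ∃ A : Finset (Fin r → ℕ),
      (∀ c ∈ A, ∀ i ∉ Jᶜ, c i = 0) ∧
      (max (w * (n + J.card) + L) 0) ^ (Jᶜ.card + 1) /
        ((Jᶜ.card + 1).factorial * w ^ Jᶜ.card) ≤
        ∑ c ∈ A, ((w * (n + J.card) + L) - w * ∑ i, (c i : ℝ)) :=
    fun J n => family_lower_sum' w hw Jᶜ _
  choose A hA1 hA2 using hex
  set I : Finset (Σ _ : Finset (Fin r), Σ _ : ℕ, Σ _ : Fin r → ℕ, (Fin r → ℕ)) :=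
    (Finset.univ : Finset (Finset (Fin r))).sigma fun J =>
      (Finset.range (k * (t - J.card) + 1)).sigma fun n =>
        (Finset.piAntidiag J n).sigma fun _ => A J n with hI
  set Φ : (Σ _ : Finset (Fin r), Σ _ : ℕ, Σ _ : Fin r → ℕ, (Fin r → ℕ)) → (Fin r → ℤ) :=
    fun x => family_e x.1 x.2.2.1 x.2.2.2 with hΦ
  have hmem : ∀ x ∈ I, x.2.1 ≤ k * (t - x.1.card) ∧
      ∑ i ∈ x.1, x.2.2.1 i = x.2.1 ∧ (∀ i ∉ x.1, x.2.2.1 i = 0) ∧
      x.2.2.2 ∈ A x.1 x.2.1 := by
    intro x hx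
    rw [hI, Finset.mem_sigma, Finset.mem_sigma, Finset.mem_sigma,
      Finset.mem_range, Finset.mem_piAntidiag] at hx
    obtain ⟨-, h2, ⟨h3, h4⟩, h5⟩ := hx
    refine ⟨by omega, h3, fun i hi => ?_, h5⟩
    by_contra h
    exact hi (h4 i h)
  have hinj : Set.InjOn Φ I := by
    rintro ⟨J, n, p, c⟩ h1 ⟨J', n', p', c'⟩ h2 h
    obtain ⟨-, a3, a4, a5⟩ := hmem _ h1
    obtain ⟨-, b3, b4, b5⟩ := hmem _ h2
    simp only at a3 a4 a5 b3 b4 b5
    obtain ⟨e1, e2, e3⟩ := family_e_inj a4 b4 (hA1 _ _ _ a5) (hA1 _ _ _ b5) h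
    subst e1 e2 e3
    have e4 : n = n' := a3.symm.trans b3
    rw [e4]
  refine ⟨I.image Φ, ?_, ?_⟩
  · intro e he
    rw [Finset.mem_image] at he
    obtain ⟨x, hx, rfl⟩ := he
    obtain ⟨h2, h3, -, -⟩ := hmem x hx
    refine family_e_needs k hk _ _ _ t ?_ (by rw [h3]; exact h2)
    have := Finset.card_le_univ x.1
    rw [Fintype.card_fin] at this
    omega
  · rw [Finset.sum_image hinj, hI, Finset.sum_sigma]
    set G : ℕ → ℝ := fun j => if j = 0 then L ^ (r + 1) / ((r + 1).factorial * w ^ r) else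
      family_C r j w * ∫ u in (0 : ℝ)..(k * ((t : ℝ) - r)), family_f j (r - j + 1) w (-L) u with hG
    have hG1 : L ^ (r + 1) / ((r + 1).factorial * w ^ r) + ∑ j ∈ Finset.Icc 1 r, (r.choose j : ℝ) *
        (family_C r j w * ∫ u in (0 : ℝ)..(k * ((t : ℝ) - r)), family_f j (r - j + 1) w (-L) u) =
        ∑ J ∈ (Finset.univ : Finset (Finset (Fin r))), G J.card := by
      rw [← Finset.powerset_univ, Finset.sum_powerset_apply_card G, Finset.card_univ,
        Fintype.card_fin]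
      have h2 : Finset.range (r + 1) = insert 0 (Finset.Icc 1 r) := by
        ext j
        simp only [Finset.mem_range, Finset.mem_insert, Finset.mem_Icc]
        omega
      rw [h2, Finset.sum_insert (by simp)]
      congr 1
      · simp [hG]
      · refine Finset.sum_congr rfl fun j hj => ?_
        have hj0 : j ≠ 0 := by
          have := (Finset.mem_Icc.1 hj).1
          omega
        simp only [hG, if_neg hj0, nsmul_eq_mul]
    rw [hG1]
    refine Finset.sum_le_sum fun J _ => ?_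
    have hJr : J.card ≤ r := by
      have := Finset.card_le_univ J
      rwa [Fintype.card_fin] at this
    have hJc : Jᶜ.card = r - J.card := by rw [Finset.card_compl, Fintype.card_fin]
    rw [Finset.sum_sigma]
    rcases Finset.eq_empty_or_nonempty J with hJ0 | hJn
    · subst hJ0
      rw [Finset.sum_eq_single 0]
      · rw [Finset.sum_sigma]
        have hp : Finset.piAntidiag (∅ : Finset (Fin r)) 0 = {0} := by
          simp
        rw [hp, Finset.sum_singleton]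
        have h2 := hA2 ∅ 0
        rw [hJc] at h2
        simp only [hG, Finset.card_empty, if_pos, Nat.sub_zero, Nat.cast_zero, add_zero, mul_zero,
          zero_add] at h2 ⊢
        rw [max_eq_left hL] at h2
        refine h2.trans_eq (Finset.sum_congr rfl fun c hc => ?_)
        have e : ∑ i, ((Φ ⟨∅, 0, 0, c⟩ i : ℤ) : ℝ) =
            -((∑ i ∈ (∅ : Finset (Fin r)), (((0 : Fin r → ℕ) i : ℕ) : ℝ)) +
              (∅ : Finset (Fin r)).card) + ∑ i, (c i : ℝ) :=
          family_e_sum ∅ 0 c (hA1 ∅ 0 c hc)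
        rw [e]
        simp
      · intro n _ hn
        rw [Finset.sum_sigma]
        have hp : Finset.piAntidiag (∅ : Finset (Fin r)) n = ∅ := by
          simp [hn]
        rw [hp, Finset.sum_empty]
      · intro h
        exact absurd (Finset.mem_range.2 (Nat.succ_pos _)) h
    have hJ1 : 1 ≤ J.card := hJn.card_pos
    have hC0 : 0 ≤ family_C r J.card w := by unfold family_C; positivity
    -- the inner sums
    have h1 : ∀ n ∈ Finset.range (k * (t - J.card) + 1),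
        family_C r J.card w * family_f J.card (r - J.card + 1) w (-L) ((n : ℝ) + 1) ≤
        ∑ x ∈ (Finset.piAntidiag J n).sigma fun _ => A J n,
          (L - w * ∑ i, ((Φ ⟨J, n, x⟩ i : ℤ) : ℝ)) := by
      intro n _
      rw [Finset.sum_sigma]
      have h2 : ∀ p ∈ Finset.piAntidiag J n,
          (max (w * (n + J.card) + L) 0) ^ (Jᶜ.card + 1) /
            ((Jᶜ.card + 1).factorial * w ^ Jᶜ.card) ≤
          ∑ c ∈ A J n, (L - w * ∑ i, ((Φ ⟨J, n, p, c⟩ i : ℤ) : ℝ)) := by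
        intro p hp
        rw [Finset.mem_piAntidiag] at hp
        refine (hA2 J n).trans_eq (Finset.sum_congr rfl fun c hc => ?_)
        have e : ∑ i, ((Φ ⟨J, n, p, c⟩ i : ℤ) : ℝ) =
            -((∑ i ∈ J, (p i : ℝ)) + J.card) + ∑ i, (c i : ℝ) :=
          family_e_sum J p c (hA1 J n c hc)
        have e2 : ∑ i ∈ J, (p i : ℝ) = n := by exact_mod_cast hp.1
        rw [e, e2]; ring
      refine le_trans ?_ (Finset.sum_le_sum h2)
      rw [Finset.sum_const, nsmul_eq_mul, hJc]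
      have h3 := family_card J hJn n
      have h4 : (max (w * ((n : ℝ) + 1) - (-L)) 0) ^ (r - J.card + 1) ≤
          (max (w * (n + J.card) + L) 0) ^ (r - J.card + 1) := by
        refine pow_le_pow_left₀ (le_max_right _ _) (max_le_max_right _ ?_) _
        have : (1 : ℝ) ≤ J.card := by exact_mod_cast hJ1
        linarith only [mul_nonneg (le_of_lt (sub_pos.2 hw)) (sub_nonneg.2 this)]
      unfold family_C family_f
      have h5 : ((n : ℝ) + 1) ^ (J.card - 1) *
          (max (w * ((n : ℝ) + 1) - (-L)) 0) ^ (r - J.card + 1) ≤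
          ((J.card - 1).factorial * (Finset.piAntidiag J n).card) *
            (max (w * (n + J.card) + L) 0) ^ (r - J.card + 1) :=
        mul_le_mul h3 h4 (by (clear * -; positivity)) (by (clear * -; positivity))
      rw [inv_mul_le_iff₀ (by positivity)]
      refine h5.trans_eq ?_
      field_simp
    refine le_trans ?_ (Finset.sum_le_sum h1)
    rw [← Finset.mul_sum]
    simp only [hG]
    rw [if_neg (by omega)]
    refine mul_le_mul_of_nonneg_left ?_ hC0
    have htR : (r : ℝ) ≤ t := by exact_mod_cast ht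
    refine family_f_sum J.card (r - J.card + 1) w (-L) hw (k * (t - J.card))
      (mul_nonneg (Nat.cast_nonneg k) (sub_nonneg.2 htR)) ?_
    rw [Nat.cast_mul, Nat.cast_sub (by omega)]
    have e3 : (J.card : ℝ) ≤ r := by exact_mod_cast hJr
    have e4 : (0 : ℝ) ≤ k := Nat.cast_nonneg k
    nlinarith [mul_nonneg e4 (sub_nonneg.2 e3)]

/-- the integral, expanded -/
theorem mu_integral (j n : ℕ) (w L κ : ℝ) (hw : 0 < w) (hL : 0 ≤ L) (hκ : 0 ≤ κ) :
    ∫ u in (0 : ℝ)..κ, family_f j n w (-L) u =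
      ∑ i ∈ range (n + 1), (n.choose i : ℝ) * L ^ (n - i) * w ^ i *
        (κ ^ (j - 1 + i + 1) / ((j - 1 + i : ℕ) + 1)) := by
  have h1 : ∫ u in (0 : ℝ)..κ, family_f j n w (-L) u =
      ∫ u in (0 : ℝ)..κ, ∑ i ∈ range (n + 1), ((n.choose i : ℝ) * L ^ (n - i) * w ^ i) *
        u ^ (j - 1 + i) := by
    refine intervalIntegral.integral_congr fun u hu => ?_
    rw [Set.uIcc_of_le hκ] at hu
    simp only [family_f]
    rw [sub_neg_eq_add, max_eq_left (add_nonneg (mul_nonneg hw.le hu.1) hL), add_pow,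
      Finset.mul_sum]
    refine Finset.sum_congr rfl fun i _ => ?_
    rw [mul_pow, pow_add]
    ring
  rw [h1, intervalIntegral.integral_finset_sum]
  · refine Finset.sum_congr rfl fun i _ => ?_
    rw [intervalIntegral.integral_const_mul, integral_pow, zero_pow (by omega), sub_zero]
  · intro i _
    exact (Continuous.intervalIntegrable (by fun_prop) _ _)

/-- the limit of the sums, in the variables `w`, `k` -/
noncomputable def GmuR (r : ℕ) (w k μ : ℝ) : ℝ :=
  μ ^ (r + 1) / ((r + 1).factorial * w ^ r) + ∑ j ∈ Finset.Icc 1 r, (r.choose j : ℝ) *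
    (family_C r j w * ∑ i ∈ range (r - j + 1 + 1), ((r - j + 1).choose i : ℝ) *
      μ ^ (r - j + 1 - i) * w ^ i *
        (k ^ (j - 1 + i + 1) / (((j - 1 + i : ℕ) + 1) * ((j - 1 + i : ℕ) + 2))))

theorem mu_sum (k r N : ℕ) (w μ : ℝ) (hw : 0 < w) (hμ : 0 ≤ μ) :
    (N : ℝ) ^ (r + 2) * GmuR r w k μ ≤ ∑ s ∈ range (N + 1),
      ((μ * N) ^ (r + 1) / ((r + 1).factorial * w ^ r) + ∑ j ∈ Finset.Icc 1 r, (r.choose j : ℝ) *
        (family_C r j w * ∫ u in (0 : ℝ)..(k * (((r + s : ℕ) : ℝ) - r)),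
          family_f j (r - j + 1) w (-(μ * N)) u)) := by
  have hL : 0 ≤ μ * N := by positivity
  rw [Finset.sum_add_distrib, Finset.sum_comm, GmuR, mul_add]
  refine add_le_add ?_ ?_
  · rw [Finset.sum_const, card_range, nsmul_eq_mul]
    have h1 : (0 : ℝ) ≤ (μ * N) ^ (r + 1) / ((r + 1).factorial * w ^ r) := by positivity
    have e : (N : ℝ) ^ (r + 2) * (μ ^ (r + 1) / ((r + 1).factorial * w ^ r)) =
        N * ((μ * N) ^ (r + 1) / ((r + 1).factorial * w ^ r)) := by
      rw [mul_pow]; ring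
    rw [e]
    push_cast
    linarith
  · rw [Finset.mul_sum]
    refine Finset.sum_le_sum fun j hj => ?_
    obtain ⟨hj1, hjr⟩ := Finset.mem_Icc.1 hj
    rw [← Finset.mul_sum, ← Finset.mul_sum, mul_left_comm]
    refine mul_le_mul_of_nonneg_left ?_ (Nat.cast_nonneg _)
    have hC0 : 0 ≤ family_C r j w := by unfold family_C; positivity
    rw [mul_left_comm]
    refine mul_le_mul_of_nonneg_left ?_ hC0
    have h1 : ∀ s ∈ range (N + 1), ∫ u in (0 : ℝ)..(k * (((r + s : ℕ) : ℝ) - r)),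
        family_f j (r - j + 1) w (-(μ * N)) u =
        ∑ i ∈ range (r - j + 1 + 1), ((r - j + 1).choose i : ℝ) * (μ * N) ^ (r - j + 1 - i) *
          w ^ i * (((k : ℝ) * s) ^ (j - 1 + i + 1) / ((j - 1 + i : ℕ) + 1)) := by
      intro s _
      have e : ((r + s : ℕ) : ℝ) - r = s := by push_cast; ring
      rw [e]
      exact mu_integral j (r - j + 1) w (μ * N) (k * s) hw hL (by positivity)
    rw [Finset.sum_congr rfl h1, Finset.sum_comm, Finset.mul_sum]
    refine Finset.sum_le_sum fun i hi => ?_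
    have hi' : i ≤ r - j + 1 := by
      have := Finset.mem_range.1 hi
      omega
    rw [← Finset.mul_sum]
    have h2 := pow_sum_ge (j - 1 + i + 1) N
    have e1 : ∑ s ∈ range (N + 1), ((k : ℝ) * s) ^ (j - 1 + i + 1) / (((j - 1 + i : ℕ) : ℝ) + 1) =
        (k : ℝ) ^ (j - 1 + i + 1) / (((j - 1 + i : ℕ) : ℝ) + 1) *
          ∑ s ∈ range (N + 1), (s : ℝ) ^ (j - 1 + i + 1) := by
      rw [Finset.mul_sum]
      refine Finset.sum_congr rfl fun s _ => ?_
      rw [mul_pow]; ring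
    rw [e1]
    have e2 : (N : ℝ) ^ (r + 2) = (N : ℝ) ^ (r - j + 1 - i) * (N : ℝ) ^ (j - 1 + i + 1 + 1) := by
      rw [← pow_add]
      congr 1
      omega
    have e3 : (((j - 1 + i + 1 : ℕ) : ℝ) + 1) = ((j - 1 + i : ℕ) : ℝ) + 2 := by push_cast; ring
    rw [e3] at h2
    have h3 : (0 : ℝ) < ((j - 1 + i : ℕ) : ℝ) + 2 := by positivity
    have h4 : (N : ℝ) ^ (j - 1 + i + 1 + 1) / (((j - 1 + i : ℕ) : ℝ) + 2) ≤
        ∑ s ∈ range (N + 1), (s : ℝ) ^ (j - 1 + i + 1) := by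
      rw [div_le_iff₀ h3]
      linarith
    have e4 : (N : ℝ) ^ (r + 2) * (((r - j + 1).choose i : ℝ) * μ ^ (r - j + 1 - i) * w ^ i *
        ((k : ℝ) ^ (j - 1 + i + 1) / ((((j - 1 + i : ℕ) : ℝ) + 1) * (((j - 1 + i : ℕ) : ℝ) + 2)))) =
        (((r - j + 1).choose i : ℝ) * (μ * N) ^ (r - j + 1 - i) * w ^ i) *
          ((k : ℝ) ^ (j - 1 + i + 1) / (((j - 1 + i : ℕ) : ℝ) + 1) *
            ((N : ℝ) ^ (j - 1 + i + 1 + 1) / (((j - 1 + i : ℕ) : ℝ) + 2))) := by
      rw [e2, mul_pow]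
      field_simp
    rw [e4]
    refine mul_le_mul_of_nonneg_left ?_ (by positivity)
    exact mul_le_mul_of_nonneg_left h4 (by positivity)

/-- the family with constant weight -/
theorem mu_family (k r : ℕ) (hk : 1 ≤ k) (w b μ : ℝ) (hw : 0 < w) (hb : 0 < b)
    (hμ : 0 ≤ μ)
    (h : ((1 + μ) ^ (r + 2) - μ ^ (r + 2)) / ((r + 2).factorial * b ^ r) < GmuR r w k μ) :
    ∃ (T : ℕ) (L : ℝ) (B : Finset (ℕ × (Fin r → ℤ))) (V : ℝ),
      (∀ p ∈ B, p.1 ≤ T ∧ needs k p.2 ≤ p.1) ∧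
      (∀ T' : Finset (ℕ × (Fin r → ℕ)), (∀ τ ∈ T', τ.1 ≤ T) →
        ∑ τ ∈ T', (L + τ.1 - b * ∑ i, (τ.2 i : ℝ)) ≤ V) ∧
      V < ∑ p ∈ B, (L - w * ∑ i, (p.2 i : ℝ)) := by
  -- the choice of `N`
  have hlim : Filter.Tendsto (fun N : ℕ =>
      ((μ + 1 + (r + 1 + r * b) / (N : ℝ)) ^ (r + 2) - (μ + r * b / (N : ℝ)) ^ (r + 2)) /
        ((r + 2).factorial * b ^ r)) Filter.atTop
      (nhds (((1 + μ) ^ (r + 2) - μ ^ (r + 2)) / ((r + 2).factorial * b ^ r))) := by
    refine Filter.Tendsto.div_const ?_ _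
    refine Filter.Tendsto.sub ?_ ?_
    · have h1 : Filter.Tendsto (fun N : ℕ => μ + 1 + (r + 1 + r * b) / (N : ℝ)) Filter.atTop
          (nhds (μ + 1 + 0)) :=
        tendsto_const_nhds.add (tendsto_const_div_atTop_nhds_zero_nat (r + 1 + r * b : ℝ))
      have h2 := h1.pow (r + 2)
      rw [show (μ + 1 + 0) ^ (r + 2) = (1 + μ) ^ (r + 2) by rw [add_zero, add_comm]] at h2
      exact h2
    · have h1 : Filter.Tendsto (fun N : ℕ => μ + r * b / (N : ℝ)) Filter.atTop
          (nhds (μ + 0)) :=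
        tendsto_const_nhds.add (tendsto_const_div_atTop_nhds_zero_nat (r * b : ℝ))
      rw [add_zero] at h1
      exact h1.pow (r + 2)
  obtain ⟨N, hN, hN1⟩ := ((hlim.eventually (gt_mem_nhds h)).and
    (Filter.eventually_ge_atTop 1)).exists
  have hN0 : (0 : ℝ) < N := by exact_mod_cast hN1
  obtain ⟨L, hLd⟩ : ∃ L : ℝ, L = μ * N := ⟨_, rfl⟩
  have hL : 0 ≤ L := by rw [hLd]; positivity
  have hex : ∀ t : ℕ, ∃ B : Finset (Fin r → ℤ), (∀ e ∈ B, needs k e ≤ t) ∧ (r ≤ t →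
      L ^ (r + 1) / ((r + 1).factorial * w ^ r) + ∑ j ∈ Finset.Icc 1 r, (r.choose j : ℝ) *
        (family_C r j w * ∫ u in (0 : ℝ)..(k * ((t : ℝ) - r)), family_f j (r - j + 1) w (-L) u) ≤
        ∑ e ∈ B, (L - w * ∑ i, (e i : ℝ))) := by
    intro t
    by_cases ht : r ≤ t
    · obtain ⟨B, h1, h2⟩ := mu_level k r hk w L hw hL t ht
      exact ⟨B, h1, fun _ => h2⟩
    · exact ⟨∅, by simp, fun h1 => (ht h1).elim⟩
  choose Bt hB1 hB2 using hex
  obtain ⟨S, hS⟩ : ∃ S : Finset ℕ, S = (range (N + 1)).image fun s => r + s := ⟨_, rfl⟩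
  have hSinj : Set.InjOn (fun s : ℕ => r + s) (range (N + 1)) := fun a _ b _ hab => by
    simpa using hab
  refine ⟨r + N, L, S.biUnion fun t => (Bt t).image fun e => (t, e),
    ∑ t ∈ range (r + N + 1), family_g r b (L + t), ?_, ?_, ?_⟩
  · intro p hp
    rw [Finset.mem_biUnion] at hp
    obtain ⟨t, ht, hp⟩ := hp
    rw [Finset.mem_image] at hp
    obtain ⟨e, he, rfl⟩ := hp
    rw [hS, Finset.mem_image] at ht
    obtain ⟨s, hs, rfl⟩ := ht
    refine ⟨?_, hB1 _ e he⟩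
    have := Finset.mem_range.1 hs
    change r + s ≤ r + N
    omega
  · intro T' hT'
    have h1 := Finset.sum_finset_product T' (Finset.range (r + N + 1))
      (fun t => (T'.filter fun τ => τ.1 = t).image Prod.snd)
      (by
        rintro ⟨t, α⟩
        simp only [Finset.mem_range, Finset.mem_image, Finset.mem_filter, Prod.exists]
        constructor
        · intro hp
          exact ⟨Nat.lt_succ_iff.2 (hT' _ hp), t, α, ⟨hp, rfl⟩, rfl⟩
        · rintro ⟨-, t', α', ⟨hp, rfl⟩, rfl⟩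
          exact hp)
      (f := fun τ : ℕ × (Fin r → ℕ) => (L + τ.1 - b * ∑ i, (τ.2 i : ℝ)))
    rw [h1]
    refine Finset.sum_le_sum fun t _ => ?_
    exact upper_sum r b (L + t) hb (add_nonneg hL (Nat.cast_nonneg t))
      ((T'.filter fun τ => τ.1 = t).image Prod.snd)
  · have h1 := Finset.sum_finset_product
      (S.biUnion fun t => (Bt t).image fun e => (t, e)) S Bt
      (by
        rintro ⟨t, e⟩
        simp only [Finset.mem_biUnion, Finset.mem_image, Prod.mk.injEq]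
        constructor
        · rintro ⟨t', ht', e', he', rfl, rfl⟩
          exact ⟨ht', he'⟩
        · rintro ⟨ht, he⟩
          exact ⟨t, ht, e, he, rfl, rfl⟩)
      (f := fun p : ℕ × (Fin r → ℤ) => (L - w * ∑ i, (p.2 i : ℝ)))
    rw [h1, hS, Finset.sum_image hSinj]
    have h2 : (N : ℝ) ^ (r + 2) * GmuR r w k μ ≤
        ∑ s ∈ range (N + 1), ∑ e ∈ Bt (r + s), (L - w * ∑ i, (e i : ℝ)) := by
      refine (mu_sum k r N w μ hw hμ).trans (Finset.sum_le_sum fun s _ => ?_)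
      rw [← hLd]
      exact hB2 (r + s) (by omega)
    refine lt_of_lt_of_le ?_ h2
    have h3 := pow_sum_le (r + 1) (r + N + 1) (L + r * b) (by positivity)
    have h4 : ∑ t ∈ range (r + N + 1), family_g r b (L + t) =
        (∑ t ∈ range (r + N + 1), (L + r * b + t) ^ (r + 1)) / ((r + 1).factorial * b ^ r) := by
      rw [Finset.sum_div]
      refine Finset.sum_congr rfl fun t _ => ?_
      unfold family_g
      rw [show L + (t : ℝ) + r * b = L + r * b + t by ring]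
    rw [h4]
    have h5 : (N : ℝ) ^ (r + 2) * (((μ + 1 + (r + 1 + r * b) / (N : ℝ)) ^ (r + 2) -
        (μ + r * b / (N : ℝ)) ^ (r + 2)) / ((r + 2).factorial * b ^ r)) <
        (N : ℝ) ^ (r + 2) * GmuR r w k μ := mul_lt_mul_of_pos_left hN (by positivity)
    refine lt_of_le_of_lt ?_ h5
    have e1 : L + r * b + ((r + N + 1 : ℕ) : ℝ) = N * (μ + 1 + (r + 1 + r * b) / (N : ℝ)) := by
      rw [hLd]; field_simp; push_cast; ring
    have e2 : L + r * b = N * (μ + r * b / (N : ℝ)) := by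
      rw [hLd]; field_simp
    rw [e1] at h3
    have hf : ((r + 2).factorial : ℝ) = (((r + 1 : ℕ) : ℝ) + 1) * (r + 1).factorial := by
      rw [Nat.factorial_succ (r + 1)]; push_cast; ring
    have h6 : (((r + 1 : ℕ) : ℝ) + 1) * ∑ t ∈ range (r + N + 1), (L + r * b + t) ^ (r + 1) ≤
        (N : ℝ) ^ (r + 2) * ((μ + 1 + (r + 1 + r * b) / (N : ℝ)) ^ (r + 2) -
        (μ + r * b / (N : ℝ)) ^ (r + 2)) := by
      refine h3.trans (le_of_eq ?_)
      rw [e2, mul_pow, mul_pow]; ring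
    rw [hf, div_le_iff₀ (by positivity)]
    have h7 : (0 : ℝ) < ((r + 1 : ℕ) : ℝ) + 1 := by positivity
    have e3 : (N : ℝ) ^ (r + 2) * (((μ + 1 + (r + 1 + r * b) / (N : ℝ)) ^ (r + 2) -
        (μ + r * b / (N : ℝ)) ^ (r + 2)) / ((((r + 1 : ℕ) : ℝ) + 1) * (r + 1).factorial * b ^ r)) *
        ((r + 1).factorial * b ^ r) =
        ((N : ℝ) ^ (r + 2) * ((μ + 1 + (r + 1 + r * b) / (N : ℝ)) ^ (r + 2) -
        (μ + r * b / (N : ℝ)) ^ (r + 2))) / (((r + 1 : ℕ) : ℝ) + 1) := by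
      field_simp
    rw [e3, le_div_iff₀ h7]
    linarith

/-- the criterion with a constant positive weight -/
theorem crit_of_muG (d k r : ℕ) (hd : 1 ≤ d) (hk : 1 ≤ k) (a b μ : ℝ) (ha : 0 < a)
    (hb : 0 < b) (hμ : 0 ≤ μ)
    (h : ((1 + μ) ^ (r + 2) - μ ^ (r + 2)) / ((r + 2).factorial * b ^ r) <
      GmuR r (a / d) k μ) : Crit d k r a b := by
  have hd0 : (0 : ℝ) < d := by exact_mod_cast hd
  obtain ⟨T, L, B, V, hB, hV, hcrit⟩ := mu_family k r hk (a / d) b μ (by positivity) hb hμ h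
  exact ⟨T, fun _ => L, B, V, fun _ _ _ => le_rfl, hB, hV, hcrit⟩

end Vale.Agent.P018.R2.H312
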