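import Vale.Agent.P018.R2.H677.MuAll
import Vale.Agent.P018.R2.H803.More16

/-!
# P018: the range with the new pairs
-/

namespace Vale.Agent.P018.R2.H312

open Polynomial Filter Topology Vale.Agent.P018.H867 Vale.Agent.P018.H867P
  Vale.Agent.P018.H867R Vale.Agent.P018.R2.H803 Vale.Agent.P018.R2.H677

/-- the pairs (degree, exponent) that are treated: the range of `SixteenthRange`, and the pairs
covered by the base pairs. -/
def InRangeN (d k : ℕ) : Prop := InRangeX d k ∨ InNew d k

/-- `f ≠ 0`, and whenever `g ^ e` divides `f` over `ℚ`, `g` irreducible, `e ≥ 1`, then `e < k` and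
`(deg g, ⌈k / e⌉)` is in the range `InRangeN`; multiple factors are allowed. -/
def GoodN (f : ℤ[X]) (k : ℕ) : Prop :=
  f ≠ 0 ∧ ∀ (g : ℚ[X]) (e : ℕ), Irreducible g → 1 ≤ e → g ^ e ∣ f.map (Int.castRingHom ℚ) →
    e < k ∧ InRangeN g.natDegree ⌈(k : ℚ) / e⌉₊

/-- new pairs. -/
def newPairs : List (ℕ × ℕ) :=
  [(26, 9), (33, 11), (37, 12), (40, 13), (44, 14), (47, 15), (48, 15), (51, 16), (52, 16),
   (55, 17), (58, 18), (59, 18), (62, 19), (63, 19), (66, 20), (67, 20), (70, 21), (71, 21),
   (73, 22), (74, 22), (77, 23), (81, 24)]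

theorem newPairs_in : ∀ e ∈ newPairs, InRangeN e.1 e.2 := by
  intro e he
  right
  unfold InNew newBase
  simp only [newPairs, List.mem_cons, List.not_mem_nil, or_false] at he
  rcases he with rfl | rfl | rfl | rfl | rfl | rfl | rfl | rfl | rfl | rfl | rfl | rfl | rfl |
    rfl | rfl | rfl | rfl | rfl | rfl | rfl | rfl | rfl <;> simp

/-- a lower bound for the logarithm -/
theorem log_ge (d m : ℕ) (hd : 0 < d) :
    (m : ℝ) * 0.6931471803 + 1 - 2 ^ m / d ≤ Real.log d := by
  have hd0 : (0 : ℝ) < d := by exact_mod_cast hd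
  have h2 := Real.log_two_gt_d9
  have h3 : Real.log d = m * Real.log 2 + Real.log (d / 2 ^ m) := by
    rw [Real.log_div hd0.ne' (by positivity), Real.log_pow]
    ring
  have h4 : 1 - (d / 2 ^ m : ℝ)⁻¹ ≤ Real.log (d / 2 ^ m) := Real.one_sub_inv_le_log_of_pos (by positivity)
  rw [inv_div] at h4
  have h5 : (0 : ℝ) ≤ m := Nat.cast_nonneg m
  rw [h3]
  nlinarith

theorem not_inX (d k m : ℕ) (c : ℝ) (hd4 : 4 < d) (h2k : 2 * k ≤ d) (h7 : 7 * k < 2 * d + 12)
    (hc0 : 0 ≤ c) (hc : c ≤ (m : ℝ) * 0.6931471803 + 1 - 2 ^ m / d)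
    (hk : (k : ℝ) < d / 4 + c ^ 2 / 16 + c / 2 + 1 / 2) : ¬ InRangeX d k := by
  have h1 := hc.trans (log_ge d m (by omega))
  have h2 : c ^ 2 ≤ Real.log d ^ 2 := pow_le_pow_left₀ hc0 h1 2
  rintro (h | h | h | h)
  · omega
  · omega
  · omega
  · linarith

theorem newPairs_out : ∀ e ∈ newPairs, ¬ InRangeX e.1 e.2 := by
  intro e he
  simp only [newPairs, List.mem_cons, List.not_mem_nil, or_false] at he
  rcases he with rfl | rfl | rfl | rfl | rfl | rfl | rfl | rfl | rfl | rfl | rfl | rfl | rfl |
    rfl | rfl | rfl | rfl | rfl | rfl | rfl | rfl | rfl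
  · exact not_inX 26 9 5 3.2 (by norm_num) (by norm_num) (by norm_num) (by norm_num) (by norm_num) (by norm_num)
  · exact not_inX 33 11 5 3.4 (by norm_num) (by norm_num) (by norm_num) (by norm_num) (by norm_num) (by norm_num)
  · exact not_inX 37 12 5 3.5 (by norm_num) (by norm_num) (by norm_num) (by norm_num) (by norm_num) (by norm_num)
  · exact not_inX 40 13 5 3.6 (by norm_num) (by norm_num) (by norm_num) (by norm_num) (by norm_num) (by norm_num)
  · exact not_inX 44 14 5 3.6 (by norm_num) (by norm_num) (by norm_num) (by norm_num) (by norm_num) (by norm_num)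
  · exact not_inX 47 15 5 3.78 (by norm_num) (by norm_num) (by norm_num) (by norm_num) (by norm_num) (by norm_num)
  · exact not_inX 48 15 6 3.78 (by norm_num) (by norm_num) (by norm_num) (by norm_num) (by norm_num) (by norm_num)
  · exact not_inX 51 16 6 3.85 (by norm_num) (by norm_num) (by norm_num) (by norm_num) (by norm_num) (by norm_num)
  · exact not_inX 52 16 6 3.85 (by norm_num) (by norm_num) (by norm_num) (by norm_num) (by norm_num) (by norm_num)
  · exact not_inX 55 17 6 3.9 (by norm_num) (by norm_num) (by norm_num) (by norm_num) (by norm_num) (by norm_num)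
  · exact not_inX 58 18 6 4.05 (by norm_num) (by norm_num) (by norm_num) (by norm_num) (by norm_num) (by norm_num)
  · exact not_inX 59 18 6 4.05 (by norm_num) (by norm_num) (by norm_num) (by norm_num) (by norm_num) (by norm_num)
  · exact not_inX 62 19 6 4.1 (by norm_num) (by norm_num) (by norm_num) (by norm_num) (by norm_num) (by norm_num)
  · exact not_inX 63 19 6 4.1 (by norm_num) (by norm_num) (by norm_num) (by norm_num) (by norm_num) (by norm_num)
  · exact not_inX 66 20 6 4.1 (by norm_num) (by norm_num) (by norm_num) (by norm_num) (by norm_num) (by norm_num)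
  · exact not_inX 67 20 6 4.1 (by norm_num) (by norm_num) (by norm_num) (by norm_num) (by norm_num) (by norm_num)
  · exact not_inX 70 21 6 4.2 (by norm_num) (by norm_num) (by norm_num) (by norm_num) (by norm_num) (by norm_num)
  · exact not_inX 71 21 6 4.2 (by norm_num) (by norm_num) (by norm_num) (by norm_num) (by norm_num) (by norm_num)
  · exact not_inX 73 22 6 4.28 (by norm_num) (by norm_num) (by norm_num) (by norm_num) (by norm_num) (by norm_num)
  · exact not_inX 74 22 6 4.28 (by norm_num) (by norm_num) (by norm_num) (by norm_num) (by norm_num) (by norm_num)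
  · exact not_inX 77 23 6 4.3 (by norm_num) (by norm_num) (by norm_num) (by norm_num) (by norm_num) (by norm_num)
  · exact not_inX 81 24 6 4.3 (by norm_num) (by norm_num) (by norm_num) (by norm_num) (by norm_num) (by norm_num)

theorem inNew_ge (d k : ℕ) (h : InNew d k) (hkd : k ≤ d) : 9 ≤ d := by
  obtain ⟨p, hp, h⟩ := h
  simp only [newBase, List.mem_cons, List.not_mem_nil, or_false] at hp
  rcases hp with rfl | rfl | rfl | rfl | rfl | rfl | rfl | rfl | rfl | rfl | rfl | rfl <;>
    rcases h with ⟨h1, h2⟩ | ⟨h1, h2⟩ <;> simp only at h1 h2 <;> omega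

/-- irreducible polynomials. -/
theorem tailN : TailR InRangeN := by
  intro f hirr k hk hr
  rcases hr with hr | hr
  · exact tailX f hirr k hk hr
  have hf0 : f ≠ 0 := by
    rintro rfl
    simp at hirr
  rcases lt_or_ge f.natDegree k with h | h
  · exact tailPow_gt f hf0 k h
  have h9 := inNew_ge _ _ hr h
  have hadm : ∀ a : ℝ, 1 ≤ a → a ≤ (f.natDegree : ℝ) / k → K2.Adm2 f.natDegree k a :=
    fun a ha ha2 => adm_new f.natDegree k (by omega) h hr a ha ha2
  have hk0 : (0 : ℝ) < k := by exact_mod_cast (by omega : 0 < k)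
  have hone : K2.Adm2 f.natDegree k 1 := by
    refine hadm 1 le_rfl ?_
    rw [le_div_iff₀ hk0, one_mul]
    exact_mod_cast h
  have hnear : NearOne f k := nearOne_of_adm f hirr k hk (by omega) hone
  rcases lt_or_ge k f.natDegree with h3 | h3
  · exact tailPow_of_hpp f hirr k hk (by omega) (hpp_of_hp f k
      (hp_of_fin f k hk h3 fun a ha ha2 => K2.fin_near2 f hirr k hk h3 a ha (hadm a ha ha2)) hnear)
  · exact tailPow_of_hpp f hirr k hk (by omega) (hpp_of_near f k hk h3 hnear)

end Vale.Agent.P018.R2.H312
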