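import Vale.Agent.P018.R2.H312.Mu2
import Vale.Agent.P018.Bdl.B15

/-!
# P018: tables with both kinds of steps

A row is `(K0, K1, [(x_2, B_2), (x_3, B_3), ...])` in units `1/10000`; `x < 20000` is an old step with
weight `-x/10000 * t`, and `x ≥ 20000` is a step with the constant weight `(x - 20000)/10000`.
-/

set_option linter.all false

namespace Vale.Agent.P018.R2.H312

open Vale.Agent.P018.K Vale.Agent.P018.K2 Vale.Agent.P018.K3 Finset

/-- the coefficients of the closed form -/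
def mcf (r s : ℕ) : ℕ := (r + 2).choose (s + 1) * (r + s - 1).choose s

def mcfq (r s : ℕ) : ℕ := ((r + 2).descFactorial (s + 1) / (s + 1).factorial) *
  ((r + s - 1).descFactorial s / s.factorial)

theorem mcfq_eq (r s : ℕ) : mcfq r s = mcf r s := by
  unfold mcfq mcf
  rw [Nat.choose_eq_descFactorial_div_factorial, Nat.choose_eq_descFactorial_div_factorial]

/-- a step with constant weight -/
noncomputable def muStep (K r M B : ℕ) : Bool :=
  and (Nat.ble 1 B) (Nat.ble
    (Nat.succ (Nat.mul (Nat.sub (Nat.pow (Nat.add 10000 M) (r + 2)) (Nat.pow M (r + 2)))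
      (Nat.pow 10000 (r - 1))))
    (Nat.mul (Nat.pow B r) (hv K M ((List.range (r + 2)).map (mcfq r)) 0 1)))

/-- a step -/
noncomputable def step2 (K r : ℕ) (cl : List ℕ) (p : ℕ × ℕ) : Bool :=
  cond (Nat.ble 20000 p.1) (muStep K r (Nat.sub p.1 20000) p.2) (fStep K r cl p)

theorem muStep_sound (d k r : ℕ) (hd : 1 ≤ d) (hk : 1 ≤ k) (hr : 1 ≤ r) (a : ℝ) (ha : 0 < a)
    (K M B : ℕ) (hK : (K : ℝ) / 10000 ≤ a / d * k) (h : muStep K r M B = true) :
    Crit d k r a (a / d * ((B : ℝ) / 10000)) := by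
  unfold muStep at h
  rw [Bool.and_eq_true, Nat.ble_eq, Nat.ble_eq] at h
  obtain ⟨h1, h2⟩ := h
  have h5 := hv_eq K M ((List.range (r + 2)).map (mcfq r)) 0 1
  rw [zero_mul, zero_add, one_mul, hev_fst] at h5
  have hlen : ((List.range (r + 2)).map (mcfq r)).length = r + 2 := by simp
  rw [hlen] at h5
  have e5 : ∀ e ∈ range (r + 2), ((List.range (r + 2)).map (mcfq r)).getD e 0 * K ^ e *
      M ^ (r + 2 - 1 - e) = mcf r e * K ^ e * M ^ (r + 1 - e) := by
    intro e he
    rw [mem_range] at he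
    rw [List.getD_eq_getElem _ _ (by simpa using he)]
    simp only [List.getElem_map, List.getElem_range, mcfq_eq]
    rw [show r + 2 - 1 - e = r + 1 - e by omega]
  rw [sum_congr rfl e5] at h5
  change ((10000 + M) ^ (r + 2) - M ^ (r + 2)) * 10000 ^ (r - 1) <
    B ^ r * (hv K M ((List.range (r + 2)).map (mcfq r)) 0 1) at h2
  rw [h5] at h2
  have hB : (0 : ℝ) < B := by exact_mod_cast h1
  refine crit_of_mu d k r hd hk hr a ((B : ℝ) / 10000) ((M : ℝ) / 10000) ha (by positivity)
    (by positivity) ?_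
  -- replace `a/d*k` by `K/10000`
  have h6 : ((B : ℝ) / 10000) ^ r * ∑ s ∈ range (r + 2),
      (((r + 2).choose (s + 1) * (r + s - 1).choose s : ℕ) : ℝ) *
        ((M : ℝ) / 10000) ^ (r + 1 - s) * ((K : ℝ) / 10000) ^ s ≤
      ((B : ℝ) / 10000) ^ r * ∑ s ∈ range (r + 2),
      (((r + 2).choose (s + 1) * (r + s - 1).choose s : ℕ) : ℝ) *
        ((M : ℝ) / 10000) ^ (r + 1 - s) * (a / d * k) ^ s := by
    refine mul_le_mul_of_nonneg_left (sum_le_sum fun s _ => ?_) (by positivity)
    refine mul_le_mul_of_nonneg_left (pow_le_pow_left₀ (by positivity) hK s) (by positivity)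
  refine lt_of_lt_of_le ?_ h6
  have h7 : (((((10000 + M) ^ (r + 2) - M ^ (r + 2)) * 10000 ^ (r - 1) : ℕ)) : ℝ) <
      ((B ^ r * ∑ e ∈ range (r + 2), mcf r e * K ^ e * M ^ (r + 1 - e) : ℕ) : ℝ) := by
    exact_mod_cast h2
  have hle : M ^ (r + 2) ≤ (10000 + M) ^ (r + 2) := Nat.pow_le_pow_left (by omega) _
  rw [Nat.cast_mul, Nat.cast_sub hle] at h7
  push_cast at h7
  have e1 : (1 + (M : ℝ) / 10000) ^ (r + 2) - ((M : ℝ) / 10000) ^ (r + 2) =
      (((10000 : ℝ) + M) ^ (r + 2) - (M : ℝ) ^ (r + 2)) * 10000 ^ (r - 1) /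
        (10000 ^ r * 10000 ^ (r + 1)) := by
    have e2 : (10000 : ℝ) ^ r * 10000 ^ (r + 1) = 10000 ^ (r + 2) * 10000 ^ (r - 1) := by
      rw [← pow_add, ← pow_add]
      congr 1
      omega
    rw [e2, one_add_div (by norm_num), div_pow, div_pow]
    field_simp
  have e3 : ((B : ℝ) / 10000) ^ r * ∑ s ∈ range (r + 2),
      (((r + 2).choose (s + 1) * (r + s - 1).choose s : ℕ) : ℝ) *
        ((M : ℝ) / 10000) ^ (r + 1 - s) * ((K : ℝ) / 10000) ^ s =
      ((B : ℝ) ^ r * ∑ e ∈ range (r + 2), (mcf r e : ℝ) * (K : ℝ) ^ e * (M : ℝ) ^ (r + 1 - e)) /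
        (10000 ^ r * 10000 ^ (r + 1)) := by
    rw [div_pow, mul_div_mul_comm, sum_div]
    congr 1
    refine sum_congr rfl fun s hs => ?_
    rw [mem_range] at hs
    rw [div_pow, div_pow]
    have e4 : (10000 : ℝ) ^ (r + 1) = 10000 ^ (r + 1 - s) * 10000 ^ s := by
      rw [← pow_add]
      congr 1
      omega
    rw [e4]
    unfold mcf
    field_simp
  rw [e1, e3]
  exact div_lt_div_of_pos_right h7 (by positivity)

/-- a step is correct -/
theorem step2_sound (d k r : ℕ) (hd : 1 ≤ d) (hk : 1 ≤ k) (hr : 1 ≤ r) (a : ℝ) (ha : 0 < a)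
    (K : ℕ) (p : ℕ × ℕ) (hK : (K : ℝ) / 10000 ≤ a / d * k)
    (h : step2 K r ((List.range r).map (cf r)) p = true) :
    0 < p.2 ∧ Crit d k r a (a / d * ((p.2 : ℝ) / 10000)) := by
  unfold step2 at h
  rcases Bool.eq_false_or_eq_true (Nat.ble 20000 p.1) with hb | hb
  · rw [hb, cond_true] at h
    refine ⟨?_, muStep_sound d k r hd hk hr a ha K _ _ hK h⟩
    unfold muStep at h
    rw [Bool.and_eq_true, Nat.ble_eq] at h
    exact h.1
  · rw [hb, cond_false] at h
    have h1 := fStep_sound K r p h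
    have h2 := stepOK_pos h1
    have h3 := crit_of_step d k r hd hk hr a ha (κ0 := (K : ℚ) / 10000)
      (by push_cast; exact hK) h1
    refine ⟨?_, ?_⟩
    · have h4 := h2.2.2.2.1
      unfold qp at h4
      simp only at h4
      have h5 : (0 : ℚ) < p.2 := by
        by_contra hcon
        have h6 : (p.2 : ℚ) = 0 := le_antisymm (not_lt.1 hcon) (Nat.cast_nonneg _)
        rw [h6] at h4
        simp at h4
      exact_mod_cast h5
    · unfold qp at h3
      push_cast at h3
      exact h3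

/-- the steps of a row -/
noncomputable def fSteps2 (K : ℕ) : ℕ → ℕ → List (List ℕ) → List (ℕ × ℕ) → Bool
  | _, _, _, [] => true
  | _, _, [], _ :: _ => false
  | r, B, c :: cs, p :: l =>
    and (or (Nat.beq p.2 B) (and (Nat.ble (Nat.succ p.2) B) (step2 K r c p)))
      (fSteps2 K (r + 1) p.2 cs l)

/-- a row -/
noncomputable def fRow2 (d0 k0 : ℕ) (cs : List (List ℕ)) (row : ℕ × ℕ × List (ℕ × ℕ)) : Bool :=
  decide (0 < row.1) && decide (row.2.2.length + 2 ≤ d0) && fSteps2 row.1 2 10000 cs row.2.2 &&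
    decide (row.2.1 * (20000 + (row.2.2.map Prod.snd).sum +
      (d0 - 2 - row.2.2.length) * ((row.2.2.map Prod.snd).getLastD 10000)) < k0 * 100000000)

/-- the table -/
noncomputable def fTab2 (d0 k0 : ℕ) (cs : List (List ℕ)) : List (ℕ × ℕ × List (ℕ × ℕ)) → Bool
  | [] => false
  | row :: tab => (row :: tab).all (fRow2 d0 k0 cs) &&
      decide (row.1 * d0 ≤ k0 * 10000) && fCover row.2.1 tab

/-- the staircase of a row -/
def tbn : ℕ → List (ℕ × ℕ) → ℕ → ℕ
  | β, [], _ => β
  | β, _ :: _, 0 => β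
  | _, p :: l, i + 1 => tbn p.2 l i

theorem tbn_nil (β i : ℕ) : tbn β [] i = β := by
  cases i <;> simp [tbn]

theorem tbn_zero (β : ℕ) (l : List (ℕ × ℕ)) : tbn β l 0 = β := by
  cases l <;> rfl

theorem tbn_ge (l : List (ℕ × ℕ)) : ∀ (β : ℕ) (i : ℕ), l.length ≤ i →
    tbn β l i = (l.map Prod.snd).getLastD β := by
  induction l with
  | nil => intro β i _; rw [tbn_nil]; rfl
  | cons p l ih =>
    intro β i hi
    cases i with
    | zero => simp at hi
    | succ i =>
      rw [tbn, ih p.2 i (by simpa using hi)]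
      cases l with
      | nil => rfl
      | cons q l => simp [List.getLast?_cons]

theorem tbn_anti (K : ℕ) (l : List (ℕ × ℕ)) : ∀ (r β : ℕ) (cs : List (List ℕ)),
    fSteps2 K r β cs l = true → ∀ i, tbn β l (i + 1) ≤ tbn β l i := by
  induction l with
  | nil => intro r β cs _ i; rw [tbn_nil, tbn_nil]
  | cons p l ih =>
    intro r β cs h i
    cases cs with
    | nil => simp [fSteps2] at h
    | cons c cs =>
      rw [fSteps2, Bool.and_eq_true, Bool.or_eq_true, Bool.and_eq_true, Nat.beq_eq,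
        Nat.ble_eq] at h
      cases i with
      | zero =>
        show tbn p.2 l 0 ≤ β
        rw [tbn_zero]
        rcases h.1 with h1 | h1
        · exact h1.le
        · have := h1.1
          omega
      | succ i => exact ih (r + 1) p.2 cs h.2 i

theorem tbn_step (K : ℕ) (l : List (ℕ × ℕ)) : ∀ (r β : ℕ) (cs : List (List ℕ)), csOK r cs →
    fSteps2 K r β cs l = true → ∀ i, tbn β l (i + 1) < tbn β l i →
      ∃ p : ℕ × ℕ, step2 K (r + i) ((List.range (r + i)).map (cf (r + i))) p = true ∧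
        p.2 = tbn β l (i + 1) := by
  induction l with
  | nil => intro r β cs _ _ i h; rw [tbn_nil, tbn_nil] at h; exact absurd h (lt_irrefl _)
  | cons p l ih =>
    intro r β cs hcs h i hi
    cases cs with
    | nil => simp [fSteps2] at h
    | cons c cs =>
      rw [fSteps2, Bool.and_eq_true, Bool.or_eq_true, Bool.and_eq_true, Nat.beq_eq,
        Nat.ble_eq] at h
      cases i with
      | zero =>
        have hi' : tbn p.2 l 0 < β := hi
        rw [tbn_zero] at hi'
        rcases h.1 with h1 | h1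
        · exact absurd h1 hi'.ne
        · refine ⟨p, ?_, ?_⟩
          · rw [add_zero, ← hcs.1]
            exact h1.2
          · show p.2 = tbn p.2 l 0
            rw [tbn_zero]
      | succ i =>
        obtain ⟨q, h1, h2⟩ := ih (r + 1) p.2 cs hcs.2 h.2 i hi
        refine ⟨q, ?_, h2⟩
        rw [show r + (i + 1) = r + 1 + i by ring]
        exact h1

theorem tbn_sum (l : List (ℕ × ℕ)) : ∀ β : ℕ,
    ∑ i ∈ range (l.length + 1), tbn β l i = β + (l.map Prod.snd).sum := by
  induction l with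
  | nil => intro β; simp [tbn]
  | cons p l ih =>
    intro β
    rw [List.length_cons, sum_range_succ', tbn_zero]
    have h : ∀ i, tbn β (p :: l) (i + 1) = tbn p.2 l i := fun i => rfl
    rw [sum_congr rfl fun i _ => h i, ih p.2, List.map_cons, List.sum_cons]
    ring

theorem adm2_of_row2 (d0 k : ℕ) (cs : List (List ℕ)) (hcs : csOK 2 cs)
    (row : ℕ × ℕ × List (ℕ × ℕ)) (h : fRow2 d0 k cs row = true) (d : ℕ) (hk : 1 ≤ k) (hkd : k ≤ d)
    (hd : d ≤ d0) (a : ℝ) (ha0 : 0 < a) (hr1 : (row.1 : ℝ) / 10000 ≤ a / d * k)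
    (hr2 : a / d * k ≤ (row.2.1 : ℝ) / 10000) : Adm2 d k a := by
  have hd1 : 1 ≤ d := hk.trans hkd
  have hd0R : (0 : ℝ) < d := by exact_mod_cast hd1
  have hkR : (0 : ℝ) < k := by exact_mod_cast hk
  obtain ⟨w, hw⟩ : ∃ w : ℝ, w = a / d := ⟨_, rfl⟩
  have hw0 : 0 < w := by rw [hw]; positivity
  unfold fRow2 at h
  simp only [Bool.and_eq_true, decide_eq_true_eq] at h
  obtain ⟨⟨⟨h1, h2⟩, h3⟩, h4⟩ := h
  obtain ⟨K0, K1, l⟩ := row
  simp only at h1 h2 h3 h4 hr1 hr2
  -- the staircase
  obtain ⟨β, hβ⟩ : ∃ β : ℕ → ℕ, β = tbn 10000 l := ⟨_, rfl⟩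
  have hanti : ∀ i, β (i + 1) ≤ β i := by rw [hβ]; exact tbn_anti K0 l 2 10000 cs h3
  have hβ0 : β 0 = 10000 := by rw [hβ, tbn_zero]
  have hcrit : ∀ i, β (i + 1) < β i → 0 < β (i + 1) ∧
      Crit d k (i + 2) a (a / d * ((β (i + 1) : ℝ) / 10000)) := by
    intro i hi
    rw [hβ] at hi
    obtain ⟨p, hp1, hp2⟩ := tbn_step K0 l 2 10000 cs hcs h3 i hi
    rw [show 2 + i = i + 2 by ring] at hp1
    have h5 := step2_sound d k (i + 2) hd1 hk (by omega) a ha0 K0 p hr1 hp1
    rw [hp2] at h5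
    rw [hβ]
    exact h5
  have hpos : ∀ i, 0 < β i := by
    intro i
    induction i with
    | zero => rw [hβ0]; norm_num
    | succ i ih =>
      rcases (hanti i).lt_or_eq with h5 | h5
      · exact (hcrit i h5).1
      · rw [h5]; exact ih
  refine ⟨fun r => w * (match r with
    | 0 => 1
    | r + 1 => (β r : ℝ) / 10000), ?_, ?_, ?_, ?_, ?_⟩
  · simp only [mul_one]
    exact hw
  · intro r
    cases r with
    | zero =>
      simp only
      rw [hβ0]
      simp
    | succ r =>
      simp only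
      have h5 : (β (r + 1) : ℝ) ≤ β r := by exact_mod_cast hanti r
      refine mul_le_mul_of_nonneg_left ?_ hw0.le
      linarith
  · rcases Nat.exists_eq_succ_of_ne_zero (by omega : d ≠ 0) with ⟨d', rfl⟩
    rw [Nat.succ_sub_one]
    cases d' with
    | zero => simpa using hw0
    | succ r =>
      have : (0 : ℝ) < β r := by exact_mod_cast hpos r
      simp only
      positivity
  · intro r hr1' hr2' hlt
    obtain ⟨i, rfl⟩ : ∃ i, r = i + 1 := ⟨r - 1, by omega⟩
    rw [Nat.add_sub_cancel] at hlt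
    cases i with
    | zero =>
      exfalso
      simp only [hβ0] at hlt
      simp at hlt
    | succ i =>
      simp only at hlt
      have hlt' : β (i + 1) < β i := by
        have h5 := lt_of_mul_lt_mul_left hlt hw0.le
        have h6 : (β (i + 1) : ℝ) < β i := by linarith
        exact_mod_cast h6
      have h7 := (hcrit i hlt').2
      simp only
      rw [hw]
      exact h7
  · -- the sum
    rw [← Finset.mul_sum]
    have hsum0 : ∑ r ∈ range d, (match r with
        | 0 => (1 : ℝ)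
        | r + 1 => (β r : ℝ) / 10000) ≤ ∑ r ∈ range d0, (match r with
        | 0 => (1 : ℝ)
        | r + 1 => (β r : ℝ) / 10000) := by
      refine Finset.sum_le_sum_of_subset_of_nonneg (Finset.range_mono hd) fun r _ _ => ?_
      cases r with
      | zero => simp
      | succ r => simp only; positivity
    obtain ⟨e, he⟩ : ∃ e, d0 = l.length + 2 + e := ⟨d0 - (l.length + 2), by omega⟩
    obtain ⟨M, hM⟩ : ∃ M : ℕ, M = (l.map Prod.snd).getLastD 10000 := ⟨_, rfl⟩
    have hsum : ∑ r ∈ range d0, (match r with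
        | 0 => (1 : ℝ)
        | r + 1 => (β r : ℝ) / 10000) =
        (20000 + ((l.map Prod.snd).sum : ℕ) + e * (M : ℝ)) / 10000 := by
      rw [he, show l.length + 2 + e = (l.length + 1 + e) + 1 by ring, sum_range_succ']
      simp only
      rw [sum_range_add, ← Finset.sum_div, ← Finset.sum_div]
      have hs1 : ∑ i ∈ range (l.length + 1), (β i : ℝ) = 10000 + ((l.map Prod.snd).sum : ℕ) := by
        rw [← Nat.cast_sum, hβ, tbn_sum l 10000]
        push_cast
        ring
      have hs2 : ∑ i ∈ range e, (β (l.length + 1 + i) : ℝ) = e * (M : ℝ) := by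
        rw [sum_congr rfl fun i _ => by
          rw [hβ, tbn_ge l 10000 (l.length + 1 + i) (by omega), ← hM], sum_const, card_range,
          nsmul_eq_mul]
      rw [hs1, hs2]
      ring
    have he' : d0 - 2 - l.length = e := by omega
    rw [he', ← hM] at h4
    have h4' : (K1 : ℝ) * (20000 + ((l.map Prod.snd).sum : ℕ) + e * (M : ℝ)) <
        k * 100000000 := by exact_mod_cast h4
    refine lt_of_le_of_lt (mul_le_mul_of_nonneg_left (hsum0.trans_eq hsum) hw0.le) ?_
    obtain ⟨S, hS⟩ : ∃ S : ℝ, S = 20000 + ((l.map Prod.snd).sum : ℕ) + e * (M : ℝ) := ⟨_, rfl⟩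
    have hS0 : 0 ≤ S := by rw [hS]; positivity
    rw [← hS] at h4' ⊢
    rw [← hw] at hr2
    have h8 : w * k * S ≤ (K1 : ℝ) / 10000 * S := mul_le_mul_of_nonneg_right hr2 hS0
    have h9 : w * (S / 10000) * k < 1 * k := by
      have e1 : w * (S / 10000) * k = w * k * S / 10000 := by ring
      have e2 : (K1 : ℝ) / 10000 * S = K1 * S / 10000 := by ring
      rw [e1]
      rw [e2] at h8
      linarith
    exact lt_of_mul_lt_mul_right h9 hkR.le

theorem cover2 (κ : ℝ) (hκ : κ ≤ 1) (tab : List (ℕ × ℕ × List (ℕ × ℕ))) : ∀ K : ℕ,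
    fCover K tab = true → (K : ℝ) / 10000 < κ →
      ∃ row ∈ tab, (row.1 : ℝ) / 10000 ≤ κ ∧ κ ≤ (row.2.1 : ℝ) / 10000 := by
  induction tab with
  | nil =>
    intro K h1 h2
    rw [fCover, decide_eq_true_eq] at h1
    have : (10000 : ℝ) ≤ K := by exact_mod_cast h1
    linarith
  | cons row tab ih =>
    intro K h1 h2
    rw [fCover, Bool.and_eq_true, decide_eq_true_eq] at h1
    have h4 : (row.1 : ℝ) ≤ K := by exact_mod_cast h1.1
    rcases le_or_gt κ ((row.2.1 : ℝ) / 10000) with h5 | h5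
    · exact ⟨row, List.mem_cons_self, by linarith, h5⟩
    · obtain ⟨row', h6, h7⟩ := ih row.2.1 h1.2 h5
      exact ⟨row', List.mem_cons_of_mem _ h6, h7⟩

/-- A correct table for `(d0, k)` gives all exponents for every `(d, k)`, `k ≤ d ≤ d0`. -/
theorem adm2_of_tab2 (d0 k : ℕ) (hk : 1 ≤ k) (tab : List (ℕ × ℕ × List (ℕ × ℕ)))
    (h : fTab2 d0 k cs38 tab = true) (d : ℕ) (hkd : k ≤ d) (hd : d ≤ d0) (a : ℝ) (ha : 1 ≤ a)
    (ha2 : a ≤ (d : ℝ) / k) : Adm2 d k a := by
  have hkR : (0 : ℝ) < k := by exact_mod_cast hk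
  have hdR : (0 : ℝ) < d := by exact_mod_cast hk.trans hkd
  have hd0R : (0 : ℝ) < d0 := by exact_mod_cast (hk.trans hkd).trans hd
  cases tab with
  | nil => simp [fTab2] at h
  | cons row tab =>
    rw [fTab2, Bool.and_eq_true, Bool.and_eq_true, decide_eq_true_eq, List.all_eq_true] at h
    obtain ⟨⟨h1, h2⟩, h3⟩ := h
    have hκ1 : a / d * k ≤ 1 := by
      rw [le_div_iff₀ hkR] at ha2
      rw [div_mul_eq_mul_div, div_le_one hdR]
      exact ha2
    have h2' : (row.1 : ℝ) * d0 ≤ k * 10000 := by exact_mod_cast h2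
    have hκ0 : (row.1 : ℝ) / 10000 ≤ a / d * k := by
      have h5 : (row.1 : ℝ) / 10000 ≤ k / d0 := by
        rw [div_le_div_iff₀ (by norm_num) hd0R]
        exact h2'
      have h6 : (k : ℝ) / d0 ≤ k / d :=
        div_le_div_of_nonneg_left hkR.le hdR (by exact_mod_cast hd)
      have h7 : (k : ℝ) / d ≤ a / d * k := by
        rw [div_mul_eq_mul_div]
        refine div_le_div_of_nonneg_right ?_ hdR.le
        nlinarith
      linarith
    rcases le_or_gt (a / d * k) ((row.2.1 : ℝ) / 10000) with h5 | h5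
    · exact adm2_of_row2 d0 k cs38 cs38_ok row (h1 row List.mem_cons_self) d hk hkd hd a
        (by linarith) hκ0 h5
    · obtain ⟨row', h6, h7, h8⟩ := cover2 _ hκ1 tab row.2.1 h3 h5
      exact adm2_of_row2 d0 k cs38 cs38_ok row' (h1 row' (List.mem_cons_of_mem _ h6)) d hk hkd hd a
        (by linarith) h7 h8

end Vale.Agent.P018.R2.H312
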