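import Vale.Agent.P018.R2.H312.Rows2

/-!
# P018: unpacking of the tables
-/

set_option linter.all false

namespace Vale.Agent.P018.R2.H312

/-- unpack pairs -/
def prs : ℕ → ℕ → List (ℕ × ℕ)
  | 0, _ => []
  | l + 1, n => (n % 65536, n / 65536 % 65536) :: prs l (n / 4294967296)

/-- unpack a row -/
def decR (len n : ℕ) : ℕ × ℕ × List (ℕ × ℕ) :=
  (n % 65536, n / 65536 % 65536, prs len (n / 4294967296))

end Vale.Agent.P018.R2.H312
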